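import Mathlib

namespace Vale.Agent.H5.P018

open Polynomial

/-- `KPowerFree k a`: no `k`-th power of a prime divides the integer `a`
(so `0` is never `k`-power-free). -/
def KPowerFree (k : ℕ) (a : ℤ) : Prop :=
  ∀ p : ℕ, p.Prime → ¬ ((p : ℤ) ^ k ∣ a)

/-- `rootCount f q` is the number of residue classes `a` modulo `q` with `f(a) ≡ 0 (mod q)`. -/
noncomputable def rootCount (f : ℤ[X]) (q : ℕ) : ℕ :=
  Nat.card {a : ZMod q // aeval a f = 0}

/-- `powerFreeCount f k X` is the number of integers `1 ≤ n ≤ X` such that `f(n)` is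
`k`-power-free. -/
noncomputable def powerFreeCount (f : ℤ[X]) (k X : ℕ) : ℕ :=
  Nat.card {n : ℕ // 1 ≤ n ∧ n ≤ X ∧ KPowerFree k (f.eval (n : ℤ))}

/-- The local factor `1 - rootCount f (p ^ k) / p ^ k` at the prime `p`. -/
noncomputable def localFactor (f : ℤ[X]) (k : ℕ) (p : Nat.Primes) : ℝ :=
  1 - (rootCount f ((p : ℕ) ^ k) : ℝ) / ((p : ℕ) : ℝ) ^ k

end Vale.Agent.H5.P018
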