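import Vale.Agent.H5.P018.Defs

namespace Vale.Agent.H5.P018

open Polynomial Filter Finset

/-- evaluation at a natural number, read modulo `q` -/
lemma aeval_natCast_zmod (f : ℤ[X]) (q n : ℕ) :
    aeval ((n : ℕ) : ZMod q) f = ((f.eval (n : ℤ) : ℤ) : ZMod q) := by
  have h := Polynomial.aeval_algebraMap_apply_eq_algebraMap_eval (R := ℤ) (A := ZMod q) (n : ℤ) f
  simpa using h

lemma aeval_natCast_zmod_eq_zero_iff (f : ℤ[X]) (q n : ℕ) :
    aeval ((n : ℕ) : ZMod q) f = 0 ↔ ((q : ℤ) ∣ f.eval (n : ℤ)) := by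
  rw [aeval_natCast_zmod, ZMod.intCast_zmod_eq_zero_iff_dvd]

lemma rootCount_le (f : ℤ[X]) (q : ℕ) [NeZero q] : rootCount f q ≤ q := by
  unfold rootCount
  calc Nat.card {a : ZMod q // aeval a f = 0} ≤ Nat.card (ZMod q) :=
        Nat.card_le_card_of_injective _ Subtype.val_injective
    _ = q := by simp

lemma localFactor_nonneg (f : ℤ[X]) (k : ℕ) (p : Nat.Primes) : 0 ≤ localFactor f k p := by
  unfold localFactor
  have : NeZero ((p : ℕ) ^ k) := ⟨pow_ne_zero _ p.2.ne_zero⟩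
  have h := rootCount_le f ((p : ℕ) ^ k)
  have hpos : (0 : ℝ) < ((p : ℕ) : ℝ) ^ k := pow_pos (by exact_mod_cast p.2.pos) _
  rw [sub_nonneg, div_le_one hpos]
  exact_mod_cast h

lemma localFactor_le_one (f : ℤ[X]) (k : ℕ) (p : Nat.Primes) : localFactor f k p ≤ 1 := by
  unfold localFactor
  have hpos : (0 : ℝ) < ((p : ℕ) : ℝ) ^ k := pow_pos (by exact_mod_cast p.2.pos) _
  have : (0 : ℝ) ≤ (rootCount f ((p : ℕ) ^ k) : ℝ) / ((p : ℕ) : ℝ) ^ k := by positivity
  linarith

lemma prod_localFactor_antitone (f : ℤ[X]) (k : ℕ) :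
    Antitone (fun s : Finset Nat.Primes => ∏ p ∈ s, localFactor f k p) := by
  intro s t hst
  dsimp only
  rw [← Finset.prod_sdiff hst]
  have h1 : ∏ p ∈ t \ s, localFactor f k p ≤ 1 :=
    Finset.prod_le_one (fun p _ => localFactor_nonneg f k p) (fun p _ => localFactor_le_one f k p)
  have h2 : 0 ≤ ∏ p ∈ s, localFactor f k p :=
    Finset.prod_nonneg (fun p _ => localFactor_nonneg f k p)
  calc (∏ p ∈ t \ s, localFactor f k p) * ∏ p ∈ s, localFactor f k p
      ≤ 1 * ∏ p ∈ s, localFactor f k p := by gcongr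
    _ = ∏ p ∈ s, localFactor f k p := one_mul _

lemma hasProd_localFactor (f : ℤ[X]) (k : ℕ) :
    HasProd (localFactor f k) (⨅ s : Finset Nat.Primes, ∏ p ∈ s, localFactor f k p) := by
  have hb : BddBelow (Set.range (fun s : Finset Nat.Primes => ∏ p ∈ s, localFactor f k p)) := by
    refine ⟨0, ?_⟩
    rintro _ ⟨s, rfl⟩
    exact Finset.prod_nonneg (fun p _ => localFactor_nonneg f k p)
  exact tendsto_atTop_ciInf (prod_localFactor_antitone f k) hb


/-- the sieve predicate: `f(n)` is nonzero modulo each of the moduli `a i` -/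
def goodNat (f : ℤ[X]) {ι : Type*} (a : ι → ℕ) (n : ℕ) : Prop :=
  ∀ i, aeval ((n : ℕ) : ZMod (a i)) f ≠ 0

lemma goodNat_periodic (f : ℤ[X]) {ι : Type*} [Fintype ι] (a : ι → ℕ) :
    Function.Periodic (goodNat f a) (∏ i, a i) := by
  intro n
  unfold goodNat
  have key : ∀ i, (((n + ∏ i, a i : ℕ)) : ZMod (a i)) = ((n : ℕ) : ZMod (a i)) := by
    intro i
    have hdvd : a i ∣ ∏ i, a i := Finset.dvd_prod_of_mem a (Finset.mem_univ i)
    have h0 : ((∏ i, a i : ℕ) : ZMod (a i)) = 0 := (ZMod.natCast_eq_zero_iff _ _).mpr hdvd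
    rw [Nat.cast_add, h0, add_zero]
  simp only [key]

lemma card_filter_range_mul (p : ℕ → Prop) [DecidablePred p] (M : ℕ)
    (hp : Function.Periodic p M) (q : ℕ) :
    (Finset.filter p (Finset.range (M * q))).card = q * Nat.count p M := by
  induction q with
  | zero => simp
  | succ q ih =>
    have hu : Finset.range (M * (q + 1)) = Finset.range (M * q) ∪ Finset.Ico (M * q) (M * q + M) := by
      ext x
      simp only [Finset.mem_range, Finset.mem_union, Finset.mem_Ico, Nat.mul_succ]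
      omega
    have hd : Disjoint (Finset.filter p (Finset.range (M * q)))
        (Finset.filter p (Finset.Ico (M * q) (M * q + M))) := by
      rw [Finset.disjoint_left]
      intro x hx hx'
      simp only [Finset.mem_filter, Finset.mem_range, Finset.mem_Ico] at hx hx'
      omega
    rw [hu, Finset.filter_union, Finset.card_union_of_disjoint hd, ih,
      Nat.filter_Ico_card_eq_of_periodic _ _ _ hp]
    ring

lemma card_filter_Icc_le (p : ℕ → Prop) [DecidablePred p] (M : ℕ) (hM : 0 < M)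
    (hp : Function.Periodic p M) (X : ℕ) :
    (Finset.filter p (Finset.Icc 1 X)).card ≤ (X / M + 1) * Nat.count p M := by
  rw [← card_filter_range_mul p M hp]
  apply Finset.card_le_card
  apply Finset.filter_subset_filter
  intro x hx
  simp only [Finset.mem_Icc, Finset.mem_range] at hx ⊢
  calc x ≤ X := hx.2
    _ < M * (X / M + 1) := Nat.lt_mul_div_succ X hM

lemma count_goodNat (f : ℤ[X]) {ι : Type*} [Fintype ι] [DecidableEq ι] (a : ι → ℕ)
    (ha : ∀ i, a i ≠ 0) (hco : Pairwise (Function.onFun Nat.Coprime a))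
    [DecidablePred (goodNat f a)] :
    Nat.count (goodNat f a) (∏ i, a i) = ∏ i, (a i - rootCount f (a i)) := by
  classical
  have hM : (∏ i, a i) ≠ 0 := Finset.prod_ne_zero_iff.mpr (fun i _ => ha i)
  have : NeZero (∏ i, a i) := ⟨hM⟩
  have : ∀ i, NeZero (a i) := fun i => ⟨ha i⟩
  have hcast : ∀ (n : ℕ) (i : ι), ZMod.prodEquivPi a hco ((n : ℕ) : ZMod (∏ i, a i)) i
      = ((n : ℕ) : ZMod (a i)) := by
    intro n i
    rw [map_natCast]
    rfl
  have h1 : Nat.count (goodNat f a) (∏ i, a i) =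
      Fintype.card {r : ZMod (∏ i, a i) // ∀ i, aeval (ZMod.prodEquivPi a hco r i) f ≠ 0} := by
    rw [Nat.count_eq_card_filter_range, Fintype.card_subtype]
    apply Finset.card_bij' (fun n _ => ((n : ℕ) : ZMod (∏ i, a i))) (fun r _ => r.val)
    · intro n hn
      simp only [Finset.mem_filter, Finset.mem_range, Finset.mem_univ, true_and] at hn ⊢
      intro i
      rw [hcast]
      exact hn.2 i
    · intro r hr
      simp only [Finset.mem_filter, Finset.mem_range, Finset.mem_univ, true_and] at hr ⊢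
      refine ⟨ZMod.val_lt r, ?_⟩
      intro i
      rw [← hcast, ZMod.natCast_zmod_val]
      exact hr i
    · intro n hn
      simp only [Finset.mem_filter, Finset.mem_range] at hn
      exact ZMod.val_natCast_of_lt hn.1
    · intro r _
      exact ZMod.natCast_zmod_val r
  have h2 : Fintype.card {r : ZMod (∏ i, a i) // ∀ i, aeval (ZMod.prodEquivPi a hco r i) f ≠ 0}
      = Fintype.card (∀ i, {x : ZMod (a i) // aeval x f ≠ 0}) :=
    Fintype.card_congr (((ZMod.prodEquivPi a hco).toEquiv.subtypeEquiv (fun _ => Iff.rfl)).trans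
      (Equiv.subtypePiEquivPi (p := fun i (x : ZMod (a i)) => aeval x f ≠ 0)))
  rw [h1, h2, Fintype.card_pi]
  apply Finset.prod_congr rfl
  intro i _
  rw [Fintype.card_subtype_compl, ZMod.card]
  unfold rootCount
  rw [Nat.card_eq_fintype_card]


lemma powerFreeCount_le_card_filter (f : ℤ[X]) (k : ℕ) (s : Finset Nat.Primes) (X : ℕ)
    [DecidablePred (goodNat f (fun p : s => ((p : Nat.Primes) : ℕ) ^ k))] :
    powerFreeCount f k X ≤
      (Finset.filter (goodNat f (fun p : s => ((p : Nat.Primes) : ℕ) ^ k)) (Finset.Icc 1 X)).card := by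
  unfold powerFreeCount
  rw [← Nat.card_eq_finsetCard]
  apply Nat.card_mono (s := {n : ℕ | 1 ≤ n ∧ n ≤ X ∧ KPowerFree k (f.eval (n : ℤ))})
    (Finset.finite_toSet _)
  intro n hn
  obtain ⟨h1, h2, h3⟩ := hn
  simp only [Finset.coe_filter, Finset.mem_Icc, Set.mem_ofPred_eq]
  refine ⟨⟨h1, h2⟩, ?_⟩
  intro p
  rw [Ne, aeval_natCast_zmod_eq_zero_iff]
  have := h3 ((p : Nat.Primes) : ℕ) (p : Nat.Primes).2
  push_cast
  exact this

lemma powerFreeCount_le (f : ℤ[X]) (k : ℕ) (s : Finset Nat.Primes) (X : ℕ) :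
    (powerFreeCount f k X : ℝ) ≤
      (∏ p ∈ s, localFactor f k p) * X + ∏ p ∈ s, (((p : ℕ) : ℝ) ^ k) := by
  classical
  set a : s → ℕ := fun p => ((p : Nat.Primes) : ℕ) ^ k with ha_def
  have ha : ∀ i, a i ≠ 0 := fun i => pow_ne_zero _ (i : Nat.Primes).2.ne_zero
  have hco : Pairwise (Function.onFun Nat.Coprime a) := by
    intro i j hij
    apply Nat.Coprime.pow
    rw [Nat.coprime_primes (i : Nat.Primes).2 (j : Nat.Primes).2]
    intro h
    exact hij (Subtype.ext (Subtype.ext h))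
  have hMpos : 0 < ∏ i, a i := Nat.pos_of_ne_zero (Finset.prod_ne_zero_iff.mpr (fun i _ => ha i))
  have h1 := powerFreeCount_le_card_filter f k s X
  have h2 := card_filter_Icc_le (goodNat f a) (∏ i, a i) hMpos (goodNat_periodic f a) X
  have h3 := count_goodNat f a ha hco
  rw [h3] at h2
  have h4 : powerFreeCount f k X ≤ (X / (∏ i, a i) + 1) * ∏ i, (a i - rootCount f (a i)) :=
    le_trans h1 h2
  have hle : ∀ i, rootCount f (a i) ≤ a i := by
    intro i
    have : NeZero (a i) := ⟨ha i⟩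
    exact rootCount_le f (a i)
  -- real number computations
  have hM : ((∏ i, a i : ℕ) : ℝ) = ∏ p ∈ s, (((p : ℕ) : ℝ) ^ k) := by
    rw [Nat.cast_prod, ← Finset.prod_coe_sort s (fun p => (((p : ℕ) : ℝ) ^ k))]
    apply Finset.prod_congr rfl
    intro i _
    simp [ha_def]
  have hG : ((∏ i, (a i - rootCount f (a i)) : ℕ) : ℝ) =
      (∏ p ∈ s, localFactor f k p) * ∏ p ∈ s, (((p : ℕ) : ℝ) ^ k) := by
    rw [Nat.cast_prod, ← Finset.prod_mul_distrib,
      ← Finset.prod_coe_sort s (fun p => localFactor f k p * (((p : ℕ) : ℝ) ^ k))]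
    apply Finset.prod_congr rfl
    intro i _
    rw [Nat.cast_sub (hle i)]
    unfold localFactor
    have hpos : (0 : ℝ) < (((i : Nat.Primes) : ℕ) : ℝ) ^ k :=
      pow_pos (by exact_mod_cast (i : Nat.Primes).2.pos) _
    simp only [ha_def, Nat.cast_pow]
    field_simp
  have hMpos' : (0 : ℝ) < ∏ p ∈ s, (((p : ℕ) : ℝ) ^ k) := by
    rw [← hM]; exact_mod_cast hMpos
  have hL0 : 0 ≤ ∏ p ∈ s, localFactor f k p :=
    Finset.prod_nonneg (fun p _ => localFactor_nonneg f k p)
  have hL1 : ∏ p ∈ s, localFactor f k p ≤ 1 :=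
    Finset.prod_le_one (fun p _ => localFactor_nonneg f k p) (fun p _ => localFactor_le_one f k p)
  have hdiv : ((X / (∏ i, a i) : ℕ) : ℝ) ≤ (X : ℝ) / ((∏ i, a i : ℕ) : ℝ) := Nat.cast_div_le
  have h5 : (powerFreeCount f k X : ℝ) ≤
      (((X / (∏ i, a i) : ℕ) : ℝ) + 1) * ((∏ i, (a i - rootCount f (a i)) : ℕ) : ℝ) := by
    exact_mod_cast h4
  rw [hG] at h5
  rw [hM] at hdiv
  set L := ∏ p ∈ s, localFactor f k p with hL
  set M := ∏ p ∈ s, (((p : ℕ) : ℝ) ^ k) with hMdef
  have hLM : 0 ≤ L * M := mul_nonneg hL0 hMpos'.le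
  calc (powerFreeCount f k X : ℝ)
      ≤ (((X / (∏ i, a i) : ℕ) : ℝ) + 1) * (L * M) := h5
    _ ≤ ((X : ℝ) / M + 1) * (L * M) := by gcongr
    _ = L * X + L * M := by field_simp
    _ ≤ L * X + 1 * M := by gcongr
    _ = L * X + M := by ring

/-- Main theorem: the Euler product converges and bounds the upper density of `k`-power-free
values. -/
theorem upper_bound_main (f : ℤ[X]) (k : ℕ) :
    Multipliable (localFactor f k) ∧
    ∀ ε : ℝ, 0 < ε → ∃ X₀ : ℕ, ∀ X : ℕ, X₀ ≤ X →
      (powerFreeCount f k X : ℝ) ≤ ((∏' p : Nat.Primes, localFactor f k p) + ε) * X := by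
  have hP := hasProd_localFactor f k
  refine ⟨hP.multipliable, ?_⟩
  intro ε hε
  rw [hP.tprod_eq]
  have hb : BddBelow (Set.range (fun s : Finset Nat.Primes => ∏ p ∈ s, localFactor f k p)) := by
    refine ⟨0, ?_⟩
    rintro _ ⟨s, rfl⟩
    exact Finset.prod_nonneg (fun p _ => localFactor_nonneg f k p)
  obtain ⟨s, hs⟩ := exists_lt_of_ciInf_lt
    (show (⨅ s : Finset Nat.Primes, ∏ p ∈ s, localFactor f k p) <
      (⨅ s : Finset Nat.Primes, ∏ p ∈ s, localFactor f k p) + ε / 2 by linarith)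
  set M := ∏ p ∈ s, (((p : ℕ) : ℝ) ^ k) with hMdef
  obtain ⟨X₀, hX₀⟩ := exists_nat_ge (2 * M / ε)
  refine ⟨X₀, ?_⟩
  intro X hX
  have h := powerFreeCount_le f k s X
  have hXr : (2 * M / ε) ≤ (X : ℝ) := le_trans hX₀ (by exact_mod_cast hX)
  have hM' : M ≤ ε / 2 * X := by
    rw [div_le_iff₀ hε] at hXr
    linarith
  have hX0 : (0 : ℝ) ≤ X := Nat.cast_nonneg X
  calc (powerFreeCount f k X : ℝ)
      ≤ (∏ p ∈ s, localFactor f k p) * X + M := h
    _ ≤ ((⨅ s : Finset Nat.Primes, ∏ p ∈ s, localFactor f k p) + ε / 2) * X + ε / 2 * X := by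
        gcongr
    _ = ((⨅ s : Finset Nat.Primes, ∏ p ∈ s, localFactor f k p) + ε) * X := by ring

end Vale.Agent.H5.P018
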